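import Mathlib

/-!
# Diophantine sets with polylogarithmically many auxiliary solutions
-/

namespace Vale.Agent.H27.PF

open MvPolynomial

/-- Integer polynomial functions of natural number variables. -/
def IsPoly {α : Type} (f : (α → ℕ) → ℤ) : Prop :=
  ∃ p : MvPolynomial α ℤ, ∀ v, MvPolynomial.eval (fun i => (v i : ℤ)) p = f v

section IsPoly
variable {α β : Type}

theorem IsPoly.const (c : ℤ) : IsPoly (fun _ : α → ℕ => c) := ⟨C c, by simp⟩

theorem IsPoly.proj (i : α) : IsPoly (fun v : α → ℕ => (v i : ℤ)) := ⟨X i, by simp⟩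

theorem IsPoly.add {f g : (α → ℕ) → ℤ} (hf : IsPoly f) (hg : IsPoly g) :
    IsPoly (fun v => f v + g v) := by
  obtain ⟨p, hp⟩ := hf
  obtain ⟨q, hq⟩ := hg
  exact ⟨p + q, fun v => by simp [hp, hq]⟩

theorem IsPoly.sub {f g : (α → ℕ) → ℤ} (hf : IsPoly f) (hg : IsPoly g) :
    IsPoly (fun v => f v - g v) := by
  obtain ⟨p, hp⟩ := hf
  obtain ⟨q, hq⟩ := hg
  exact ⟨p - q, fun v => by simp [hp, hq]⟩

theorem IsPoly.mul {f g : (α → ℕ) → ℤ} (hf : IsPoly f) (hg : IsPoly g) :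
    IsPoly (fun v => f v * g v) := by
  obtain ⟨p, hp⟩ := hf
  obtain ⟨q, hq⟩ := hg
  exact ⟨p * q, fun v => by simp [hp, hq]⟩

theorem IsPoly.sum {ι : Type} (s : Finset ι) {f : ι → (α → ℕ) → ℤ} (hf : ∀ i, IsPoly (f i)) :
    IsPoly (fun v => ∑ i ∈ s, f i v) := by
  classical
  choose p hp using hf
  exact ⟨∑ i ∈ s, p i, fun v => by simp [hp]⟩

/-- substitution of variables -/
theorem IsPoly.reindex {f : (α → ℕ) → ℤ} (hf : IsPoly f) (e : α → β) :
    IsPoly (fun v : β → ℕ => f (v ∘ e)) := by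
  obtain ⟨p, hp⟩ := hf
  refine ⟨rename e p, fun v => ?_⟩
  rw [eval_rename]
  exact hp (v ∘ e)

end IsPoly

/-- the polylogarithmic bound -/
def plb (C k N : ℕ) : ℕ := C * (Nat.log 2 N + 1) ^ k

theorem plb_mul (C k C' k' N : ℕ) : plb C k N * plb C' k' N = plb (C * C') (k + k') N := by
  simp only [plb, pow_add]; ring

theorem plb_add_le (C k C' k' N : ℕ) :
    plb C k N + plb C' k' N ≤ plb (C + C') (k + k') N := by
  simp only [plb, pow_add, add_mul]
  have h1 : 1 ≤ (Nat.log 2 N + 1) ^ k := Nat.one_le_pow _ _ (by omega)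
  have h2 : 1 ≤ (Nat.log 2 N + 1) ^ k' := Nat.one_le_pow _ _ (by omega)
  nlinarith [Nat.zero_le C, Nat.zero_le C', Nat.mul_le_mul_left C (Nat.mul_le_mul_left ((Nat.log 2 N + 1) ^ k) h2),
    Nat.mul_le_mul_left C' (Nat.mul_le_mul_right ((Nat.log 2 N + 1) ^ k') h1)]

/-- `x` is bounded by `N`. -/
def bdd {γ : Type} (N : ℕ) : Set (γ → ℕ) := {x | ∀ i, x i ≤ N}

theorem bdd_finite {γ : Type} [Finite γ] (N : ℕ) : (bdd N : Set (γ → ℕ)).Finite := by
  have h := Set.Finite.pi' (ι := γ) (κ := fun _ => ℕ) (t := fun _ => Set.Iic N)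
    (fun _ => Set.finite_Iic N)
  exact h.subset fun x hx i => hx i

/-- A family of sets `X v ⊆ ℕ^γ` having at most `C (log N)^k` members of height `≤ N`. -/
def Sparse {δ γ : Type} (X : δ → Set (γ → ℕ)) : Prop :=
  ∃ C k : ℕ, ∀ v N, (X v ∩ bdd N).ncard ≤ plb C k N

theorem Sparse.of_subsingleton {δ γ : Type} {X : δ → Set (γ → ℕ)}
    (h : ∀ v, (X v).Subsingleton) : Sparse X := by
  refine ⟨1, 0, fun v N => ?_⟩
  simp only [plb, pow_zero, mul_one]
  have hs : (X v ∩ bdd N).Subsingleton := (h v).anti Set.inter_subset_left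
  rcases hs.eq_empty_or_singleton with h | ⟨x, h⟩ <;> simp [h]

theorem ncard_prod_le {A B : Type} {S : Set A} {T : A → Set B} (hS : S.Finite)
    (hT : ∀ a ∈ S, (T a).Finite) {c d : ℕ} (hc : S.ncard ≤ c) (hd : ∀ a ∈ S, (T a).ncard ≤ d) :
    {p : A × B | p.1 ∈ S ∧ p.2 ∈ T p.1}.ncard ≤ c * d := by
  classical
  let Tf : A → Finset B := fun a => if h : (T a).Finite then h.toFinset else ∅
  have hTf : ∀ a ∈ S, (↑(Tf a) : Set B) = T a := by
    intro a ha
    simp only [Tf, dif_pos (hT a ha), Set.Finite.coe_toFinset]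
  let U : Finset (A × B) := hS.toFinset.biUnion fun a => (Tf a).image fun b => (a, b)
  have hsub : {p : A × B | p.1 ∈ S ∧ p.2 ∈ T p.1} ⊆ ↑U := by
    rintro ⟨a, b⟩ ⟨h1, h2⟩
    simp only [U, Finset.coe_biUnion, Set.mem_iUnion, Finset.coe_image, Set.mem_image,
      Prod.mk.injEq, Set.Finite.coe_toFinset]
    have h2' : b ∈ T a := h2
    have h1' : a ∈ S := h1
    exact ⟨a, h1', b, by rw [hTf a h1']; exact h2', rfl, rfl⟩
  refine (Set.ncard_le_ncard hsub (Finset.finite_toSet U)).trans ?_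
  rw [Set.ncard_coe_finset]
  refine Finset.card_biUnion_le.trans ?_
  calc ∑ a ∈ hS.toFinset, ((Tf a).image (fun b => (a, b))).card
      ≤ ∑ a ∈ hS.toFinset, d := by
        refine Finset.sum_le_sum fun a ha => Finset.card_image_le.trans ?_
        have ha' : a ∈ S := (Set.Finite.mem_toFinset hS).1 ha
        rw [← Set.ncard_coe_finset, hTf a ha']
        exact hd a ha'
    _ = hS.toFinset.card * d := by rw [Finset.sum_const, smul_eq_mul]
    _ ≤ c * d := by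
        refine Nat.mul_le_mul_right _ ?_
        rw [← Set.ncard_eq_toFinset_card S hS]; exact hc

/-- `S ⊆ ℕ^α` has a polynomial Diophantine representation with polylogarithmically many
auxiliary solutions. -/
def PLD {α : Type} (S : Set (α → ℕ)) : Prop :=
  ∃ (β : Type) (_ : Fintype β) (f : (α ⊕ β → ℕ) → ℤ), IsPoly f ∧
    (∀ v, v ∈ S ↔ ∃ w : β → ℕ, f (Sum.elim v w) = 0) ∧
    Sparse (fun v : α → ℕ => {w : β → ℕ | f (Sum.elim v w) = 0})

section PLD
variable {α α' : Type}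

theorem PLD.eq0 {f : (α → ℕ) → ℤ} (hf : IsPoly f) : PLD {v | f v = 0} := by
  refine ⟨Empty, inferInstance, fun v => f (v ∘ Sum.inl), hf.reindex _, fun v => ?_, ?_⟩
  · constructor
    · intro h; exact ⟨fun e => e.elim, h⟩
    · rintro ⟨w, h⟩; exact h
  · apply Sparse.of_subsingleton
    intro v x _ y _
    funext e; exact e.elim

theorem PLD.congr {S T : Set (α → ℕ)} (h : PLD S) (e : ∀ v, v ∈ S ↔ v ∈ T) : PLD T := by
  have : S = T := Set.ext e
  rwa [← this]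

theorem PLD.inter {S T : Set (α → ℕ)} (hS : PLD S) (hT : PLD T) : PLD (S ∩ T) := by
  obtain ⟨β, _, f, hf, hfS, C, k, hC⟩ := hS
  obtain ⟨γ, _, g, hg, hgT, C', k', hC'⟩ := hT
  let eb : α ⊕ β → α ⊕ (β ⊕ γ) := Sum.elim Sum.inl (fun b => Sum.inr (Sum.inl b))
  let ec : α ⊕ γ → α ⊕ (β ⊕ γ) := Sum.elim Sum.inl (fun b => Sum.inr (Sum.inr b))
  have key : ∀ (v : α → ℕ) (w : β ⊕ γ → ℕ),
      (f (Sum.elim v w ∘ eb) * f (Sum.elim v w ∘ eb) +
        g (Sum.elim v w ∘ ec) * g (Sum.elim v w ∘ ec) = 0) ↔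
      (f (Sum.elim v (w ∘ Sum.inl)) = 0 ∧ g (Sum.elim v (w ∘ Sum.inr)) = 0) := by
    intro v w
    have h1 : Sum.elim v w ∘ eb = Sum.elim v (w ∘ Sum.inl) := by
      funext i; rcases i with i | i <;> rfl
    have h2 : Sum.elim v w ∘ ec = Sum.elim v (w ∘ Sum.inr) := by
      funext i; rcases i with i | i <;> rfl
    rw [h1, h2]
    constructor
    · intro h
      constructor <;> nlinarith [mul_self_nonneg (f (Sum.elim v (w ∘ Sum.inl))),
        mul_self_nonneg (g (Sum.elim v (w ∘ Sum.inr)))]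
    · rintro ⟨h1, h2⟩; simp [h1, h2]
  refine ⟨β ⊕ γ, inferInstance, fun v => f (v ∘ eb) * f (v ∘ eb) + g (v ∘ ec) * g (v ∘ ec),
    ((hf.reindex eb).mul (hf.reindex eb)).add ((hg.reindex ec).mul (hg.reindex ec)),
    fun v => ?_, C * C', k + k', fun v N => ?_⟩
  · simp only [Set.mem_inter_iff, hfS, hgT]
    constructor
    · rintro ⟨⟨w, hw⟩, ⟨w', hw'⟩⟩
      refine ⟨Sum.elim w w', (key _ _).2 ⟨?_, ?_⟩⟩
      · simpa using hw
      · simpa using hw'
    · rintro ⟨w, hw⟩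
      have := (key _ _).1 hw
      exact ⟨⟨_, this.1⟩, ⟨_, this.2⟩⟩
  · rw [← plb_mul]
    have hb := ncard_prod_le (S := {w : β → ℕ | f (Sum.elim v w) = 0} ∩ bdd N)
      (T := fun _ => {w : γ → ℕ | g (Sum.elim v w) = 0} ∩ bdd N)
      ((bdd_finite N).subset Set.inter_subset_right)
      (fun _ _ => (bdd_finite N).subset Set.inter_subset_right) (hC v N) (fun _ _ => hC' v N)
    refine le_trans ?_ hb
    refine Set.ncard_le_ncard_of_injOn (fun w : β ⊕ γ → ℕ => (w ∘ Sum.inl, w ∘ Sum.inr)) ?_ ?_ ?_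
    · rintro w ⟨hw, hN⟩
      have := (key _ _).1 hw
      exact ⟨⟨this.1, fun i => hN _⟩, ⟨this.2, fun i => hN _⟩⟩
    · intro w _ w' _ h
      simp only [Prod.mk.injEq] at h
      funext i
      rcases i with i | i
      · exact congrFun h.1 i
      · exact congrFun h.2 i
    · refine ((bdd_finite (γ := β) N).prod (bdd_finite (γ := γ) N)).subset ?_
      rintro ⟨x, y⟩ ⟨h1, h2⟩
      exact ⟨h1.2, h2.2⟩

theorem PLD.union {S T : Set (α → ℕ)} (hS : PLD S) (hT : PLD T) : PLD (S ∪ T) := by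
  classical
  obtain ⟨β, _, f, hf, hfS, C, k, hC⟩ := hS
  obtain ⟨γ, _, g, hg, hgT, C', k', hC'⟩ := hT
  let eb : α ⊕ β → α ⊕ (β ⊕ γ) := Sum.elim Sum.inl (fun b => Sum.inr (Sum.inl b))
  let ec : α ⊕ γ → α ⊕ (β ⊕ γ) := Sum.elim Sum.inl (fun b => Sum.inr (Sum.inr b))
  let F : (α ⊕ (β ⊕ γ) → ℕ) → ℤ := fun v =>
    f (v ∘ eb) * f (v ∘ eb) + ∑ c : γ, ((v (Sum.inr (Sum.inr c)) : ℕ) : ℤ)
  let G : (α ⊕ (β ⊕ γ) → ℕ) → ℤ := fun v =>
    g (v ∘ ec) * g (v ∘ ec) + ∑ c : β, ((v (Sum.inr (Sum.inl c)) : ℕ) : ℤ)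
  have hF : IsPoly F := ((hf.reindex eb).mul (hf.reindex eb)).add
    (IsPoly.sum _ fun c => IsPoly.proj _)
  have hG : IsPoly G := ((hg.reindex ec).mul (hg.reindex ec)).add
    (IsPoly.sum _ fun c => IsPoly.proj _)
  have keyF : ∀ (v : α → ℕ) (w : β ⊕ γ → ℕ), F (Sum.elim v w) = 0 ↔
      (f (Sum.elim v (w ∘ Sum.inl)) = 0 ∧ w ∘ Sum.inr = 0) := by
    intro v w
    have h1 : Sum.elim v w ∘ eb = Sum.elim v (w ∘ Sum.inl) := by
      funext i; rcases i with i | i <;> rfl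
    have h3 : (0 : ℤ) ≤ ∑ c : γ, ((w (Sum.inr c) : ℕ) : ℤ) :=
      Finset.sum_nonneg fun _ _ => by positivity
    simp only [F, h1, Sum.elim_inr]
    constructor
    · intro h
      have h4 : ∑ c : γ, ((w (Sum.inr c) : ℕ) : ℤ) = 0 := by
        nlinarith [mul_self_nonneg (f (Sum.elim v (w ∘ Sum.inl)))]
      refine ⟨by nlinarith [mul_self_nonneg (f (Sum.elim v (w ∘ Sum.inl)))], ?_⟩
      funext c
      have := (Finset.sum_eq_zero_iff_of_nonneg (fun _ _ => by positivity)).1 h4 c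
        (Finset.mem_univ _)
      simpa using this
    · rintro ⟨h5, h2⟩
      have h6 : ∀ c, w (Sum.inr c) = 0 := fun c => congrFun h2 c
      simp [h5, h6]
  have keyG : ∀ (v : α → ℕ) (w : β ⊕ γ → ℕ), G (Sum.elim v w) = 0 ↔
      (g (Sum.elim v (w ∘ Sum.inr)) = 0 ∧ w ∘ Sum.inl = 0) := by
    intro v w
    have h1 : Sum.elim v w ∘ ec = Sum.elim v (w ∘ Sum.inr) := by
      funext i; rcases i with i | i <;> rfl
    have h3 : (0 : ℤ) ≤ ∑ c : β, ((w (Sum.inl c) : ℕ) : ℤ) :=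
      Finset.sum_nonneg fun _ _ => by positivity
    simp only [G, h1, Sum.elim_inr]
    constructor
    · intro h
      have h4 : ∑ c : β, ((w (Sum.inl c) : ℕ) : ℤ) = 0 := by
        nlinarith [mul_self_nonneg (g (Sum.elim v (w ∘ Sum.inr)))]
      refine ⟨by nlinarith [mul_self_nonneg (g (Sum.elim v (w ∘ Sum.inr)))], ?_⟩
      funext c
      have := (Finset.sum_eq_zero_iff_of_nonneg (fun _ _ => by positivity)).1 h4 c
        (Finset.mem_univ _)
      simpa using this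
    · rintro ⟨h5, h2⟩
      have h6 : ∀ c, w (Sum.inl c) = 0 := fun c => congrFun h2 c
      simp [h5, h6]
  refine ⟨β ⊕ γ, inferInstance, fun v => F v * G v, hF.mul hG, fun v => ?_,
    C + C', k + k', fun v N => ?_⟩
  · simp only [Set.mem_union, hfS, hgT, mul_eq_zero, keyF, keyG]
    constructor
    · rintro (⟨w, hw⟩ | ⟨w, hw⟩)
      · exact ⟨Sum.elim w 0, Or.inl ⟨by simpa using hw, by simp⟩⟩
      · exact ⟨Sum.elim 0 w, Or.inr ⟨by simpa using hw, by simp⟩⟩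
    · rintro ⟨w, hw | hw⟩
      · exact Or.inl ⟨_, hw.1⟩
      · exact Or.inr ⟨_, hw.1⟩
  · refine le_trans ?_ (plb_add_le _ _ _ _ _)
    refine le_trans ?_ (Nat.add_le_add (hC v N) (hC' v N))
    have hsub : ({w : β ⊕ γ → ℕ | F (Sum.elim v w) * G (Sum.elim v w) = 0} ∩ bdd N) ⊆
        ((fun x : β → ℕ => (Sum.elim x 0 : β ⊕ γ → ℕ)) ''
            ({w : β → ℕ | f (Sum.elim v w) = 0} ∩ bdd N)) ∪
        ((fun x : γ → ℕ => (Sum.elim 0 x : β ⊕ γ → ℕ)) ''
            ({w : γ → ℕ | g (Sum.elim v w) = 0} ∩ bdd N)) := by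
      rintro w ⟨hw, hN⟩
      simp only [Set.mem_ofPred_eq, mul_eq_zero, keyF, keyG] at hw
      rcases hw with hw | hw
      · left
        refine ⟨w ∘ Sum.inl, ⟨hw.1, fun i => hN _⟩, ?_⟩
        funext i
        rcases i with i | i
        · rfl
        · exact (congrFun hw.2 i).symm
      · right
        refine ⟨w ∘ Sum.inr, ⟨hw.1, fun i => hN _⟩, ?_⟩
        funext i
        rcases i with i | i
        · exact (congrFun hw.2 i).symm
        · rfl
    have fin1 : (((fun x : β → ℕ => (Sum.elim x 0 : β ⊕ γ → ℕ)) ''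
            ({w : β → ℕ | f (Sum.elim v w) = 0} ∩ bdd N))).Finite :=
      ((bdd_finite N).subset Set.inter_subset_right).image _
    have fin2 : (((fun x : γ → ℕ => (Sum.elim 0 x : β ⊕ γ → ℕ)) ''
            ({w : γ → ℕ | g (Sum.elim v w) = 0} ∩ bdd N))).Finite :=
      ((bdd_finite N).subset Set.inter_subset_right).image _
    refine (Set.ncard_le_ncard hsub (fin1.union fin2)).trans ?_
    refine (Set.ncard_union_le _ _).trans ?_
    exact Nat.add_le_add
      (Set.ncard_image_le ((bdd_finite N).subset Set.inter_subset_right))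
      (Set.ncard_image_le ((bdd_finite N).subset Set.inter_subset_right))

theorem PLD.reindex {S : Set (α → ℕ)} (hS : PLD S) (e : α → α') :
    PLD {v : α' → ℕ | v ∘ e ∈ S} := by
  obtain ⟨β, _, f, hf, hfS, C, k, hC⟩ := hS
  let e' : α ⊕ β → α' ⊕ β := Sum.map e id
  have h1 : ∀ (v : α' → ℕ) (w : β → ℕ), Sum.elim v w ∘ e' = Sum.elim (v ∘ e) w := by
    intro v w; funext i; rcases i with i | i <;> rfl
  refine ⟨β, inferInstance, fun v => f (v ∘ e'), hf.reindex e', fun v => ?_, C, k,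
    fun v N => ?_⟩
  · simp only [Set.mem_ofPred_eq, hfS, h1]
  · simp only [h1]; exact hC _ _

/-- Projection along a variable block with sparse fibres. -/
theorem PLD.ex {γ : Type} [Fintype γ] {T : Set (α ⊕ γ → ℕ)} (hT : PLD T)
    (hs : Sparse (fun v : α → ℕ => {x : γ → ℕ | Sum.elim v x ∈ T})) :
    PLD {v : α → ℕ | ∃ x : γ → ℕ, Sum.elim v x ∈ T} := by
  obtain ⟨β, _, f, hf, hfT, C, k, hC⟩ := hT
  obtain ⟨C', k', hC'⟩ := hs
  let e : (α ⊕ γ) ⊕ β → α ⊕ (γ ⊕ β) := (Equiv.sumAssoc α γ β)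
  have h1 : ∀ (v : α → ℕ) (w : γ ⊕ β → ℕ),
      Sum.elim v w ∘ e = Sum.elim (Sum.elim v (w ∘ Sum.inl)) (w ∘ Sum.inr) := by
    intro v w; funext i; rcases i with (i | i) | i <;> rfl
  refine ⟨γ ⊕ β, inferInstance, fun v => f (v ∘ e), hf.reindex e, fun v => ?_, C' * C, k' + k,
    fun v N => ?_⟩
  · simp only [Set.mem_ofPred_eq, hfT, h1]
    constructor
    · rintro ⟨x, w, h⟩
      exact ⟨Sum.elim x w, by simpa using h⟩
    · rintro ⟨w, h⟩
      exact ⟨_, _, h⟩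
  · rw [← plb_mul]
    have hb := ncard_prod_le (S := {x : γ → ℕ | Sum.elim v x ∈ T} ∩ bdd N)
      (T := fun x => {w : β → ℕ | f (Sum.elim (Sum.elim v x) w) = 0} ∩ bdd N)
      ((bdd_finite N).subset Set.inter_subset_right)
      (fun _ _ => (bdd_finite N).subset Set.inter_subset_right) (hC' v N)
      (fun x _ => hC (Sum.elim v x) N)
    refine le_trans ?_ hb
    simp only [h1]
    refine Set.ncard_le_ncard_of_injOn (fun w : γ ⊕ β → ℕ => (w ∘ Sum.inl, w ∘ Sum.inr)) ?_ ?_ ?_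
    · rintro w ⟨hw, hN⟩
      refine ⟨⟨?_, fun i => hN _⟩, ⟨hw, fun i => hN _⟩⟩
      exact (hfT _).2 ⟨_, hw⟩
    · intro w _ w' _ h
      simp only [Prod.mk.injEq] at h
      funext i
      rcases i with i | i
      · exact congrFun h.1 i
      · exact congrFun h.2 i
    · refine ((bdd_finite (γ := γ) N).prod (bdd_finite (γ := β) N)).subset ?_
      rintro ⟨x, y⟩ ⟨h1, h2⟩
      exact ⟨h1.2, h2.2⟩

end PLD

end Vale.Agent.H27.PF
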