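import Mathlib

/-!
# Exponential terms and single-fold exponential Diophantine representations
-/

namespace Vale.Agent.H27.PF

/-- Expressions built from variables (indexed by `σ`) and natural-number constants
using addition, multiplication and exponentiation. -/
inductive ExpTerm (σ : Type) : Type
  | var : σ → ExpTerm σ
  | const : ℕ → ExpTerm σ
  | add : ExpTerm σ → ExpTerm σ → ExpTerm σ
  | mul : ExpTerm σ → ExpTerm σ → ExpTerm σ
  | pow : ExpTerm σ → ExpTerm σ → ExpTerm σ

/-- Value of an exponential term at a valuation of its variables by natural numbers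
(with the convention `0 ^ 0 = 1`). -/
def ExpTerm.eval {σ : Type} (v : σ → ℕ) : ExpTerm σ → ℕ
  | .var i => v i
  | .const c => c
  | .add s t => s.eval v + t.eval v
  | .mul s t => s.eval v * t.eval v
  | .pow s t => s.eval v ^ t.eval v

/-- `S ⊆ ℕ^n` has a single-fold exponential Diophantine representation: for some exponential
terms `E₁, E₂` in the parameters `a₁, …, aₙ` and the auxiliary variables `w₁, …, wₘ`,
one has `a ∈ S` iff `E₁(a,w) = E₂(a,w)` for some `w ∈ ℕ^m`, and for every `a` there is at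
most one such `w`. -/
def SingleFoldExp {n : ℕ} (S : Set (Fin n → ℕ)) : Prop :=
  ∃ (m : ℕ) (E₁ E₂ : ExpTerm (Fin n ⊕ Fin m)),
    (∀ a : Fin n → ℕ, a ∈ S ↔
      ∃ w : Fin m → ℕ, E₁.eval (Sum.elim a w) = E₂.eval (Sum.elim a w)) ∧
    ∀ a : Fin n → ℕ,
      {w : Fin m → ℕ | E₁.eval (Sum.elim a w) = E₂.eval (Sum.elim a w)}.Subsingleton

/-- The set `{w ∈ ℕ^m : P(a,w) = 0}` of auxiliary solutions of the polynomial `P` with integer
coefficients, at the parameter `a ∈ ℕ^n`. -/
def auxSolutions {n m : ℕ} (P : MvPolynomial (Fin n ⊕ Fin m) ℤ) (a : Fin n → ℕ) :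
    Set (Fin m → ℕ) :=
  {w | MvPolynomial.eval (Sum.elim (fun i => (a i : ℤ)) (fun j => (w j : ℤ))) P = 0}

end Vale.Agent.H27.PF
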