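import Vale.Agent.H27.PF.Rel

/-!
# The Pell part: the relation `x = x_k(a), y = y_k(a)` and exponentiation
-/

namespace Vale.Agent.H27.PF

open Pell

theorem index_le_log {a : ℕ} (a1 : 1 < a) {i N : ℕ} (h : xn a1 i ≤ N) :
    i < Nat.log 2 N + 1 := by
  have h1 : 2 ^ i ≤ N :=
    (Nat.pow_le_pow_left a1 i).trans ((xn_ge_a_pow a1 i).trans h)
  have h2 : i ≤ Nat.log 2 N := by
    have := Nat.log_mono_right (b := 2) h1
    rwa [Nat.log_pow (by norm_num)] at this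
  omega

/-- Pell equation without subtraction -/
theorem pell_nosub {a x y : ℕ} (ha : 0 < a) :
    x * x - (a * a - 1) * y * y = 1 ↔ x * x + y * y = a * a * (y * y) + 1 := by
  have h1 : (a * a - 1) * y * y + y * y = a * a * (y * y) := by
    have h2 : 1 ≤ a * a := Nat.mul_pos ha ha
    obtain ⟨c, hc⟩ := Nat.exists_eq_add_of_le h2
    have h3 : a * a - 1 = c := by omega
    rw [h3, hc]; ring
  constructor
  · intro h; omega
  · intro h; omega

theorem exists_index {a x y : ℕ} (a1 : 1 < a) (h : x * x + y * y = a * a * (y * y) + 1) :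
    ∃ n, x = xn a1 n ∧ y = yn a1 n :=
  eq_pell a1 ((pell_nosub (by omega)).2 h)

theorem pell_eq' {a : ℕ} (a1 : 1 < a) (n : ℕ) :
    xn a1 n * xn a1 n + yn a1 n * yn a1 n = a * a * (yn a1 n * yn a1 n) + 1 :=
  (pell_nosub (by omega)).1 (pell_eq a1 n)

/-- the variables: `v 0 = a`, `v 1 = k`, `v 2 = x`, `v 3 = y` -/
def pellSet : Set (Fin 4 → ℕ) :=
  {v | ∃ a1 : 1 < v 0, xn a1 (v 1) = v 2 ∧ yn a1 (v 1) = v 3}

/-- the auxiliary conditions; `w = (u, v, s, t, b)` -/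
def pellAux (a k x y : ℕ) (u v s t b : ℕ) : Prop :=
  (1 < a ∧ 1 < b ∧ 0 < v ∧ 0 < y ∧ k ≤ y) ∧
  (x * x + y * y = a * a * (y * y) + 1 ∧ u * u + v * v = a * a * (v * v) + 1 ∧
    s * s + t * t = b * b * (t * t) + 1) ∧
  (b + u * u * a = a + u * u * (u * u)) ∧ (b ≡ 1 [MOD 4 * y]) ∧ (b ≡ a [MOD u]) ∧
  (y * y ∣ v) ∧ (s ≡ x [MOD u]) ∧ (t ≡ k [MOD 4 * y])

theorem four_dvd_yn {a : ℕ} (a1 : 1 < a) (j : ℕ) : 4 ∣ yn a1 (4 * j) := by
  have h1 : ∀ i, yn a1 (2 * i) = 2 * (xn a1 i * yn a1 i) := by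
    intro i; rw [two_mul, yn_add]; ring
  have h2 : 4 * j = 2 * (2 * j) := by ring
  rw [h2, h1, h1]
  exact ⟨xn a1 (2 * j) * (xn a1 j * yn a1 j), by ring⟩

theorem pellAux_exists {a k : ℕ} (a1 : 1 < a) (kpos : 0 < k) :
    ∃ u v s t b, pellAux a k (xn a1 k) (yn a1 k) u v s t b := by
  set x := xn a1 k with hx
  set y := yn a1 k with hy
  have ypos : 0 < y := strictMono_y a1 kpos
  set m := 4 * (k * y) with hm
  set u := xn a1 m with hu
  set v := yn a1 m with hv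
  have ky : k ≤ y := yn_ge_n a1 k
  have yv : y * y ∣ v := (ysq_dvd_yy a1 k).trans <| (y_dvd_iff _ _ _).2 <| dvd_mul_left _ _
  have v4 : 4 ∣ v := four_dvd_yn a1 _
  have m1 : 1 < m := by
    have : 0 < k * y := Nat.mul_pos kpos ypos
    omega
  have vp : 0 < v := strictMono_y a1 (lt_trans zero_lt_one m1)
  have hau : a < u := by
    have : xn a1 1 < u := strictMono_x a1 m1
    simpa using this
  have hauu : a ≤ u * u := hau.le.trans (Nat.le_mul_self u)
  obtain ⟨c, hc⟩ := Nat.exists_eq_add_of_le hauu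
  set b := a + u * u * c with hb
  have hbe : b + u * u * a = a + u * u * (u * u) := by
    rw [hb]
    calc a + u * u * c + u * u * a = a + u * u * (a + c) := by ring
      _ = a + u * u * (u * u) := by rw [← hc]
  have b1 : 1 < b := by omega
  have hu4 : u * u ≡ 1 [MOD 4 * y] := by
    have h1 : 4 * y ∣ v * v := by
      have : y ∣ v := (dvd_mul_right y y).trans yv
      exact Nat.mul_dvd_mul v4 this
    have h2 := pell_eq' a1 m
    rw [← hu, ← hv] at h2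
    have h3 : v * v ≡ 0 [MOD 4 * y] := (Nat.modEq_zero_iff_dvd).2 h1
    have h4 : u * u + 0 ≡ 0 + 1 [MOD 4 * y] := by
      calc u * u + 0 ≡ u * u + v * v [MOD 4 * y] := h3.symm.add_left _
        _ = a * a * (v * v) + 1 := h2
        _ ≡ a * a * 0 + 1 [MOD 4 * y] := (h3.mul_left _).add_right _
        _ = 0 + 1 := by ring
    simpa using h4
  have bm1 : b ≡ 1 [MOD 4 * y] := by
    have h5 : b + a ≡ 1 + a [MOD 4 * y] := by
      calc b + a = b + 1 * a := by ring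
        _ ≡ b + u * u * a [MOD 4 * y] := (hu4.symm.mul_right a).add_left b
        _ = a + u * u * (u * u) := hbe
        _ ≡ a + 1 * 1 [MOD 4 * y] := (hu4.mul hu4).add_left a
        _ = 1 + a := by ring
    exact Nat.ModEq.add_right_cancel' a h5
  have ba : b ≡ a [MOD u] := by
    have h6 : u * u * c ≡ 0 [MOD u] := (Nat.modEq_zero_iff_dvd).2 ⟨u * c, by ring⟩
    calc b = a + u * u * c := rfl
      _ ≡ a + 0 [MOD u] := h6.add_left a
      _ = a := by ring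
  refine ⟨u, v, xn b1 k, yn b1 k, b, ⟨a1, b1, vp, ypos, ky⟩, ⟨pell_eq' a1 k, pell_eq' a1 m,
    pell_eq' b1 k⟩, hbe, bm1, ba, yv, ?_, ?_⟩
  · exact (xy_modEq_of_modEq b1 a1 ba k).left
  · have h7 : 4 * y ∣ b - 1 := (Nat.modEq_iff_dvd' b1.le).1 bm1.symm
    exact (yn_modEq_a_sub_one b1 k).of_dvd h7

theorem mem_pellSet_iff (v : Fin 4 → ℕ) : v ∈ pellSet ↔
    ((1 < v 0 ∧ v 1 = 0 ∧ v 2 = 1 ∧ v 3 = 0) ∨
      ∃ w : Fin 5 → ℕ, pellAux (v 0) (v 1) (v 2) (v 3) (w 0) (w 1) (w 2) (w 3) (w 4)) := by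
  constructor
  · rintro ⟨a1, hx, hy⟩
    rcases Nat.eq_zero_or_pos (v 1) with h0 | h0
    · left
      rw [h0] at hx hy
      exact ⟨a1, h0, by rw [← hx]; exact xn_zero a1, by rw [← hy]; exact yn_zero a1⟩
    · right
      obtain ⟨u, v', s, t, b, h⟩ := pellAux_exists a1 h0
      rw [hx, hy] at h
      exact ⟨![u, v', s, t, b], h⟩
  · rintro (⟨a1, h1, h2, h3⟩ | ⟨w, ⟨a1, b1, vp, yp, ky⟩, ⟨e1, e2, e3⟩, hb, c1, c2, c3, c4, c5⟩)
    · refine ⟨a1, ?_, ?_⟩
      · rw [h1, h2]; exact xn_zero a1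
      · rw [h1, h3]; exact yn_zero a1
    · refine matiyasevic.2 ⟨a1, ky, Or.inr ⟨w 0, w 1, w 2, w 3, w 4, ?_, ?_, ?_, b1, c1, c2, vp,
        c3, c4, c5⟩⟩
      · exact (pell_nosub (by omega)).2 e1
      · exact (pell_nosub (by omega)).2 e2
      · exact (pell_nosub (by omega)).2 e3

end Vale.Agent.H27.PF
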