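import Vale.Agent.H27.PF.PellPart

/-!
# Sparseness of the auxiliary solutions and exponentiation
-/

namespace Vale.Agent.H27.PF

open Pell

theorem pellAux_sparse : Sparse (fun v : Fin 4 → ℕ =>
    {w : Fin 5 → ℕ | pellAux (v 0) (v 1) (v 2) (v 3) (w 0) (w 1) (w 2) (w 3) (w 4)}) := by
  classical
  refine ⟨1, 2, fun v N => ?_⟩
  set L := Nat.log 2 N + 1 with hL
  by_cases a1 : 1 < v 0
  swap
  · have : ({w : Fin 5 → ℕ | pellAux (v 0) (v 1) (v 2) (v 3) (w 0) (w 1) (w 2) (w 3) (w 4)} ∩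
        bdd N) = ∅ := by
      ext w
      simp only [Set.mem_inter_iff, Set.mem_ofPred_eq, Set.mem_empty_iff_false, iff_false]
      rintro ⟨h, -⟩
      exact a1 h.1.1
    rw [this]; simp
  -- the value of b as a function of i
  let bb : ℕ → ℕ := fun i =>
    v 0 + xn a1 i * xn a1 i * (xn a1 i * xn a1 i) - xn a1 i * xn a1 i * v 0
  let g : ℕ × ℕ → (Fin 5 → ℕ) := fun p =>
    if hb : 1 < bb p.1 then ![xn a1 p.1, yn a1 p.1, xn hb p.2, yn hb p.2, bb p.1] else 0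
  have hsub : ({w : Fin 5 → ℕ | pellAux (v 0) (v 1) (v 2) (v 3) (w 0) (w 1) (w 2) (w 3) (w 4)} ∩
        bdd N) ⊆ ↑((Finset.range L ×ˢ Finset.range L).image g) := by
    rintro w ⟨⟨⟨-, b1, vp, yp, ky⟩, ⟨e1, e2, e3⟩, hb, c1, c2, c3, c4, c5⟩, hN⟩
    obtain ⟨i, hi1, hi2⟩ := exists_index a1 e2
    obtain ⟨j, hj1, hj2⟩ := exists_index b1 e3
    have hbb : bb i = w 4 := by
      simp only [bb, ← hi1]; omega
    rw [Finset.coe_image]
    refine ⟨(i, j), ?_, ?_⟩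
    · simp only [Finset.coe_product, Finset.coe_range, Set.mem_prod, Set.mem_Iio]
      constructor
      · exact index_le_log a1 (hi1 ▸ hN 0)
      · exact index_le_log b1 (hj1 ▸ hN 2)
    · have hbi : 1 < bb i := hbb ▸ b1
      simp only [g]
      rw [dif_pos hbi]
      have hx : ∀ n, xn hbi n = xn b1 n := by
        intro n; congr 1
      have hy : ∀ n, yn hbi n = yn b1 n := by
        intro n; congr 1
      funext l
      fin_cases l
      · exact hi1.symm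
      · exact hi2.symm
      · show xn hbi j = w 2
        rw [hx]; exact hj1.symm
      · show yn hbi j = w 3
        rw [hy]; exact hj2.symm
      · exact hbb
  refine (Set.ncard_le_ncard hsub (Finset.finite_toSet _)).trans ?_
  rw [Set.ncard_coe_finset]
  refine Finset.card_image_le.trans ?_
  simp only [Finset.card_product, Finset.card_range, plb]
  rw [one_mul, pow_two]

theorem pld_pellSet : PLD pellSet := by
  have h0 : PLD {v : Fin 4 → ℕ | 1 < v 0 ∧ v 1 = 0 ∧ v 2 = 1 ∧ v 3 = 0} :=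
    (PLD.ltN (NPoly.const 1) (NPoly.proj 0)).and
      ((PLD.eqN (NPoly.proj 1) (NPoly.const 0)).and
        ((PLD.eqN (NPoly.proj 2) (NPoly.const 1)).and (PLD.eqN (NPoly.proj 3) (NPoly.const 0))))
  have p : ∀ i : Fin 4, NPoly (fun w : Fin 4 ⊕ Fin 5 → ℕ => w (Sum.inl i)) :=
    fun i => NPoly.proj _
  have q : ∀ i : Fin 5, NPoly (fun w : Fin 4 ⊕ Fin 5 → ℕ => w (Sum.inr i)) :=
    fun i => NPoly.proj _
  have c : ∀ n : ℕ, NPoly (fun _ : Fin 4 ⊕ Fin 5 → ℕ => n) := fun n => NPoly.const n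
  have h1 : PLD {w : Fin 4 ⊕ Fin 5 → ℕ |
      pellAux (w (Sum.inl 0)) (w (Sum.inl 1)) (w (Sum.inl 2)) (w (Sum.inl 3))
        (w (Sum.inr 0)) (w (Sum.inr 1)) (w (Sum.inr 2)) (w (Sum.inr 3)) (w (Sum.inr 4))} := by
    unfold pellAux
    refine PLD.and ?_ (PLD.and ?_ (PLD.and ?_ (PLD.and ?_ (PLD.and ?_ (PLD.and ?_
      (PLD.and ?_ ?_))))))
    · exact (PLD.ltN (c 1) (p 0)).and ((PLD.ltN (c 1) (q 4)).and ((PLD.ltN (c 0) (q 1)).and
        ((PLD.ltN (c 0) (p 3)).and (PLD.leN (p 1) (p 3)))))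
    · exact (PLD.eqN (((p 2).mul (p 2)).add ((p 3).mul (p 3)))
          ((((p 0).mul (p 0)).mul ((p 3).mul (p 3))).add (c 1))).and
        ((PLD.eqN (((q 0).mul (q 0)).add ((q 1).mul (q 1)))
          ((((p 0).mul (p 0)).mul ((q 1).mul (q 1))).add (c 1))).and
        (PLD.eqN (((q 2).mul (q 2)).add ((q 3).mul (q 3)))
          ((((q 4).mul (q 4)).mul ((q 3).mul (q 3))).add (c 1))))
    · exact PLD.eqN ((q 4).add (((q 0).mul (q 0)).mul (p 0)))
        ((p 0).add (((q 0).mul (q 0)).mul ((q 0).mul (q 0))))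
    · exact PLD.modEqN (q 4) (c 1) ((c 4).mul (p 3))
    · exact PLD.modEqN (q 4) (p 0) (q 0)
    · exact PLD.dvdN ((p 3).mul (p 3)) (q 1)
    · exact PLD.modEqN (q 2) (p 2) (q 0)
    · exact PLD.modEqN (q 3) (p 1) ((c 4).mul (p 3))
  have h2 := PLD.ex (α := Fin 4) (γ := Fin 5) h1 pellAux_sparse
  refine (h0.or h2).congr fun v => ?_
  rw [mem_pellSet_iff]
  rfl

theorem sub_mul_aux (Y m : ℕ) {a n : ℕ} (h : n ≤ a) : Y * (a - n) + m + Y * n = Y * a + m := by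
  obtain ⟨d, rfl⟩ := Nat.exists_eq_add_of_le h
  rw [Nat.add_sub_cancel_left]; ring

/-- auxiliary conditions for `m = n ^ k` in the main case; `(w,a,t,z,x,y)` -/
def powAux (n k m : ℕ) (w a t z x y : ℕ) : Prop :=
  (0 < n ∧ 0 < k ∧ w = n + k ∧ 1 < a) ∧
  (a * a + w * z * (w * z) = (w + 1) * (w + 1) * (w * z * (w * z)) + 1) ∧
  (2 * a * n = t + (n * n + 1)) ∧ m < t ∧ (∃ a1 : 1 < a, xn a1 k = x ∧ yn a1 k = y) ∧
  (x + y * n ≡ y * a + m [MOD t])

theorem powAux_exists {n k : ℕ} (hn : 0 < n) (hk : 0 < k) :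
    ∃ w a t z x y, powAux n k (n ^ k) w a t z x y := by
  set w := n + k with hw
  have nw : n ≤ w := Nat.le_add_right _ _
  have kw : k ≤ w := Nat.le_add_left _ _
  have wpos : 0 < w := by omega
  have w1 : 1 < w + 1 := Nat.succ_lt_succ wpos
  set a := xn w1 w with ha
  have a1 : 1 < a := strictMono_x w1 wpos
  have na : n ≤ a := nw.trans (n_lt_xn w1 w).le
  obtain ⟨z, ze⟩ : w ∣ yn w1 w :=
    Nat.modEq_zero_iff_dvd.1 ((yn_modEq_a_sub_one w1 w).trans dvd_rfl.modEq_zero_nat)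
  have nt : (↑(n ^ k) : ℤ) < 2 * a * n - n * n - 1 := by
    refine eq_pow_of_pell_lem hn.ne' hk.ne' ?_
    calc
      n ^ k ≤ n ^ w := Nat.pow_le_pow_right hn kw
      _ < (w + 1) ^ w := Nat.pow_lt_pow_left (Nat.lt_succ_of_le nw) wpos.ne'
      _ ≤ a := xn_ge_a_pow w1 w
  obtain ⟨t, te⟩ : ∃ t : ℕ, (t : ℤ) = 2 * a * n - n * n - 1 :=
    ⟨(2 * a * n - n * n - 1 : ℤ).toNat, Int.toNat_of_nonneg ((Nat.cast_nonneg _).trans nt.le)⟩
  have tm : xn a1 k + yn a1 k * n ≡ yn a1 k * a + n ^ k [MOD t] := by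
    have h1 : xn a1 k ≡ yn a1 k * (a - n) + n ^ k [MOD t] := by
      apply Nat.modEq_of_dvd
      rw [Int.natCast_add, Int.natCast_mul, Int.ofNat_sub na, te]
      exact x_sub_y_dvd_pow a1 n k
    have h2 := h1.add_right (yn a1 k * n)
    have h3 : yn a1 k * (a - n) + n ^ k + yn a1 k * n = yn a1 k * a + n ^ k :=
      sub_mul_aux (yn a1 k) (n ^ k) na
    rwa [h3] at h2
  have ta : 2 * a * n = t + (n * n + 1) := by
    zify
    rw [te]; ring
  have zp := pell_eq' w1 w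
  rw [ze] at zp
  refine ⟨w, a, t, z, xn a1 k, yn a1 k, ⟨hn, hk, rfl, a1⟩, zp, ta, ?_, ⟨a1, rfl, rfl⟩, tm⟩
  rw [← te] at nt
  exact_mod_cast nt

theorem powAux_sound {n k m w a t z x y : ℕ} (h : powAux n k m w a t z x y) : n ^ k = m := by
  obtain ⟨⟨hn, hk, hw, a1⟩, zp, ta, mt, ⟨_, hx, hy⟩, tm⟩ := h
  subst hx hy
  have wpos : 0 < w := by omega
  have w1 : 1 < w + 1 := Nat.succ_lt_succ wpos
  have nw : n ≤ w := by omega
  have kw : k ≤ w := by omega
  have zp' : a * a - ((w + 1) * (w + 1) - 1) * (w * z) * (w * z) = 1 :=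
    (pell_nosub (by omega)).2 zp
  have na : n ≤ a := by
    obtain ⟨j, hj, yj⟩ := exists_index w1 zp
    have hj0 : 0 < j := by
      apply Nat.pos_of_ne_zero
      rintro rfl
      rw [hj] at a1
      simp at a1
    calc n ≤ w + 1 := by omega
      _ ≤ (w + 1) ^ j := Nat.le_self_pow hj0.ne' _
      _ ≤ xn w1 j := xn_ge_a_pow w1 j
      _ = a := hj.symm
  refine eq_pow_of_pell.2 (Or.inr ⟨hk, Or.inr ⟨hn, w, a, t, z, a1, ?_, ta, mt, nw, kw, zp'⟩⟩)
  have h3 : yn a1 k * (a - n) + m + yn a1 k * n = yn a1 k * a + m :=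
    sub_mul_aux (yn a1 k) m na
  have h4 : xn a1 k + yn a1 k * n ≡ yn a1 k * (a - n) + m + yn a1 k * n [MOD t] := by
    rw [h3]; exact tm
  exact Nat.ModEq.add_right_cancel' _ h4

theorem powAux_sparse : Sparse (fun v : Fin 3 → ℕ =>
    {w : Fin 6 → ℕ | powAux (v 0) (v 1) (v 2) (w 0) (w 1) (w 2) (w 3) (w 4) (w 5)}) := by
  classical
  refine ⟨1, 1, fun v N => ?_⟩
  set L := Nat.log 2 N + 1 with hL
  by_cases hn : 0 < v 0
  swap
  · have : ({w : Fin 6 → ℕ | powAux (v 0) (v 1) (v 2) (w 0) (w 1) (w 2) (w 3) (w 4) (w 5)} ∩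
        bdd N) = ∅ := by
      ext w
      simp only [Set.mem_inter_iff, Set.mem_ofPred_eq, Set.mem_empty_iff_false, iff_false]
      rintro ⟨h, -⟩
      exact hn h.1.1
    rw [this]; simp
  have w1 : 1 < v 0 + v 1 + 1 := by omega
  let aa : ℕ → ℕ := fun i => xn w1 i
  let g : ℕ → (Fin 6 → ℕ) := fun i =>
    if ha : 1 < aa i then ![v 0 + v 1, aa i, 2 * aa i * v 0 - (v 0 * v 0 + 1),
      yn w1 i / (v 0 + v 1), xn ha (v 1), yn ha (v 1)] else 0
  have hsub : ({w : Fin 6 → ℕ | powAux (v 0) (v 1) (v 2) (w 0) (w 1) (w 2) (w 3) (w 4) (w 5)} ∩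
        bdd N) ⊆ ↑((Finset.range L).image g) := by
    rintro w ⟨⟨⟨-, hk, hw, a1⟩, zp, ta, mt, ⟨_, hx, hy⟩, tm⟩, hN⟩
    rw [hw] at zp
    obtain ⟨i, hi1, hi2⟩ := exists_index w1 zp
    rw [Finset.coe_image]
    refine ⟨i, ?_, ?_⟩
    · simp only [Finset.coe_range, Set.mem_Iio]
      exact index_le_log w1 (hi1 ▸ hN 1)
    · have hai : 1 < aa i := by simp only [aa, ← hi1]; exact a1
      have hai' : aa i = w 1 := hi1.symm
      simp only [g]
      rw [dif_pos hai]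
      have hx' : ∀ n, xn hai n = xn a1 n := by
        intro n; congr 1
      have hy' : ∀ n, yn hai n = yn a1 n := by
        intro n; congr 1
      funext l
      fin_cases l
      · exact hw.symm
      · exact hai'
      · show 2 * aa i * v 0 - (v 0 * v 0 + 1) = w 2
        rw [hai']; omega
      · show yn w1 i / (v 0 + v 1) = w 3
        rw [← hi2]
        exact Nat.mul_div_cancel_left _ (by omega)
      · show xn hai (v 1) = w 4
        rw [hx']; exact hx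
      · show yn hai (v 1) = w 5
        rw [hy']; exact hy
  refine (Set.ncard_le_ncard hsub (Finset.finite_toSet _)).trans ?_
  rw [Set.ncard_coe_finset]
  refine Finset.card_image_le.trans ?_
  simp only [Finset.card_range, plb]
  rw [one_mul, pow_one]

/-- the graph of exponentiation: `v 2 = v 0 ^ v 1` -/
theorem pld_pow : PLD {v : Fin 3 → ℕ | v 2 = v 0 ^ v 1} := by
  have p : ∀ i : Fin 3, NPoly (fun w : Fin 3 ⊕ Fin 6 → ℕ => w (Sum.inl i)) :=
    fun i => NPoly.proj _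
  have q : ∀ i : Fin 6, NPoly (fun w : Fin 3 ⊕ Fin 6 → ℕ => w (Sum.inr i)) :=
    fun i => NPoly.proj _
  have c : ∀ n : ℕ, NPoly (fun _ : Fin 3 ⊕ Fin 6 → ℕ => n) := fun n => NPoly.const n
  have h0 : PLD {v : Fin 3 → ℕ | v 1 = 0 ∧ v 2 = 1} :=
    (PLD.eqN (NPoly.proj 1) (NPoly.const 0)).and (PLD.eqN (NPoly.proj 2) (NPoly.const 1))
  have h0' : PLD {v : Fin 3 → ℕ | 0 < v 1 ∧ v 0 = 0 ∧ v 2 = 0} :=
    (PLD.ltN (NPoly.const 0) (NPoly.proj 1)).and
      ((PLD.eqN (NPoly.proj 0) (NPoly.const 0)).and (PLD.eqN (NPoly.proj 2) (NPoly.const 0)))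
  have h1 : PLD {w : Fin 3 ⊕ Fin 6 → ℕ |
      powAux (w (Sum.inl 0)) (w (Sum.inl 1)) (w (Sum.inl 2))
        (w (Sum.inr 0)) (w (Sum.inr 1)) (w (Sum.inr 2)) (w (Sum.inr 3)) (w (Sum.inr 4))
        (w (Sum.inr 5))} := by
    unfold powAux
    refine PLD.and ?_ (PLD.and ?_ (PLD.and ?_ (PLD.and ?_ (PLD.and ?_ ?_))))
    · exact (PLD.ltN (c 0) (p 0)).and ((PLD.ltN (c 0) (p 1)).and
        ((PLD.eqN (q 0) ((p 0).add (p 1))).and (PLD.ltN (c 1) (q 1))))
    · exact PLD.eqN (((q 1).mul (q 1)).add (((q 0).mul (q 3)).mul ((q 0).mul (q 3))))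
        (((((q 0).add (c 1)).mul ((q 0).add (c 1))).mul
          (((q 0).mul (q 3)).mul ((q 0).mul (q 3)))).add (c 1))
    · exact PLD.eqN (((c 2).mul (q 1)).mul (p 0)) ((q 2).add (((p 0).mul (p 0)).add (c 1)))
    · exact PLD.ltN (p 2) (q 2)
    · exact pld_pellSet.reindex ![Sum.inr 1, Sum.inl 1, Sum.inr 4, Sum.inr 5]
    · exact PLD.modEqN ((q 4).add ((q 5).mul (p 0))) (((q 5).mul (q 1)).add (p 2)) (q 2)
  have h2 := PLD.ex (α := Fin 3) (γ := Fin 6) h1 powAux_sparse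
  refine (h0.or (h0'.or h2)).congr fun v => ?_
  simp only [Set.mem_ofPred_eq, Sum.elim_inl, Sum.elim_inr]
  constructor
  · rintro (⟨h1, h2⟩ | ⟨h1, h2, h3⟩ | ⟨w, hw⟩)
    · rw [h1, h2]; simp
    · rw [h2, h3, zero_pow h1.ne']
    · exact (powAux_sound hw).symm
  · intro h
    rcases Nat.eq_zero_or_pos (v 1) with hk | hk
    · left; exact ⟨hk, by rw [h, hk]; simp⟩
    · rcases Nat.eq_zero_or_pos (v 0) with hn | hn
      · right; left; exact ⟨hk, hn, by rw [h, hn, zero_pow hk.ne']⟩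
      · right; right
        obtain ⟨w, a, t, z, x, y, h'⟩ := powAux_exists hn hk
        rw [← h] at h'
        exact ⟨![w, a, t, z, x, y], h'⟩

end Vale.Agent.H27.PF
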