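import Vale.Agent.H27.PF.Basic

/-!
# Basic relations with polylogarithmically many auxiliary solutions
-/

namespace Vale.Agent.H27.PF

variable {α α' : Type}

/-- natural number valued polynomial functions -/
def NPoly (f : (α → ℕ) → ℕ) : Prop := IsPoly (fun v => (f v : ℤ))

theorem NPoly.const (c : ℕ) : NPoly (fun _ : α → ℕ => c) := IsPoly.const _

theorem NPoly.proj (i : α) : NPoly (fun v : α → ℕ => v i) := IsPoly.proj i

theorem NPoly.add {f g : (α → ℕ) → ℕ} (hf : NPoly f) (hg : NPoly g) :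
    NPoly (fun v => f v + g v) := by
  unfold NPoly; push_cast; exact IsPoly.add hf hg

theorem NPoly.mul {f g : (α → ℕ) → ℕ} (hf : NPoly f) (hg : NPoly g) :
    NPoly (fun v => f v * g v) := by
  unfold NPoly; push_cast; exact IsPoly.mul hf hg

theorem NPoly.reindex {f : (α → ℕ) → ℕ} (hf : NPoly f) (e : α → α') :
    NPoly (fun v : α' → ℕ => f (v ∘ e)) := IsPoly.reindex hf e

theorem PLD.eqN {f g : (α → ℕ) → ℕ} (hf : NPoly f) (hg : NPoly g) : PLD {v | f v = g v} := by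
  refine (PLD.eq0 (IsPoly.sub hf hg)).congr fun v => ?_
  simp only [Set.mem_ofPred_eq, sub_eq_zero, Nat.cast_inj]

theorem PLD.and {S T : (α → ℕ) → Prop} (hS : PLD {v | S v}) (hT : PLD {v | T v}) :
    PLD {v | S v ∧ T v} := hS.inter hT

theorem PLD.or {S T : (α → ℕ) → Prop} (hS : PLD {v | S v}) (hT : PLD {v | T v}) :
    PLD {v | S v ∨ T v} := hS.union hT

theorem PLD.exUnique {γ : Type} [Fintype γ] {T : Set (α ⊕ γ → ℕ)} (hT : PLD T)
    (hs : ∀ v (x x' : γ → ℕ), Sum.elim v x ∈ T → Sum.elim v x' ∈ T → x = x') :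
    PLD {v : α → ℕ | ∃ x : γ → ℕ, Sum.elim v x ∈ T} :=
  hT.ex (Sparse.of_subsingleton fun v x hx x' hx' => hs v x x' hx hx')

theorem PLD.leN {f g : (α → ℕ) → ℕ} (hf : NPoly f) (hg : NPoly g) : PLD {v | f v ≤ g v} := by
  have h : PLD {w : α ⊕ Unit → ℕ | f (w ∘ Sum.inl) + w (Sum.inr ()) = g (w ∘ Sum.inl)} :=
    PLD.eqN ((hf.reindex _).add (NPoly.proj _)) (hg.reindex _)
  refine (h.exUnique ?_).congr fun v => ?_
  · intro v x x' h1 h2
    simp only [Set.mem_ofPred_eq, Sum.elim_comp_inl, Sum.elim_inr] at h1 h2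
    funext u
    have : u = () := rfl
    subst this
    omega
  · simp only [Set.mem_ofPred_eq, Sum.elim_comp_inl, Sum.elim_inr]
    constructor
    · rintro ⟨x, h⟩; omega
    · intro h
      exact ⟨fun _ => g v - f v, Nat.add_sub_cancel' h⟩

theorem PLD.ltN {f g : (α → ℕ) → ℕ} (hf : NPoly f) (hg : NPoly g) : PLD {v | f v < g v} :=
  (PLD.leN (hf.add (NPoly.const 1)) hg).congr fun _ => Iff.rfl

theorem PLD.dvdN {f g : (α → ℕ) → ℕ} (hf : NPoly f) (hg : NPoly g) : PLD {v | f v ∣ g v} := by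
  have h : PLD {w : α ⊕ Fin 2 → ℕ | g (w ∘ Sum.inl) = f (w ∘ Sum.inl) * w (Sum.inr 0) ∧
      w (Sum.inr 0) + w (Sum.inr 1) = g (w ∘ Sum.inl)} :=
    (PLD.eqN (hg.reindex _) ((hf.reindex _).mul (NPoly.proj _))).and
      (PLD.eqN ((NPoly.proj _).add (NPoly.proj _)) (hg.reindex _))
  refine (h.exUnique ?_).congr fun v => ?_
  · rintro v x x' ⟨h1, h2⟩ ⟨h3, h4⟩
    simp only [Sum.elim_comp_inl, Sum.elim_inr] at h1 h2 h3 h4
    have h0 : x 0 = x' 0 := by
      rcases Nat.eq_zero_or_pos (f v) with hf0 | hf0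
      · rw [hf0, zero_mul] at h1; omega
      · exact Nat.eq_of_mul_eq_mul_left hf0 (h1.symm.trans h3)
    funext i
    fin_cases i
    · exact h0
    · show x 1 = x' 1
      omega
  · simp only [Set.mem_ofPred_eq, Sum.elim_comp_inl, Sum.elim_inr]
    constructor
    · rintro ⟨x, h, -⟩; exact ⟨_, h⟩
    · rintro ⟨q, h⟩
      rcases Nat.eq_zero_or_pos (f v) with hf0 | hf0
      · refine ⟨![0, 0], ?_, ?_⟩
        · simp [h, hf0]
        · simp [h, hf0]
      · have hq : q ≤ g v := by rw [h]; exact Nat.le_mul_of_pos_left _ hf0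
        refine ⟨![q, g v - q], ?_, ?_⟩
        · simpa using h
        · simp; omega

theorem PLD.modEqN {f g h : (α → ℕ) → ℕ} (hf : NPoly f) (hg : NPoly g) (hh : NPoly h) :
    PLD {v | f v ≡ g v [MOD h v]} := by
  have key : ∀ {f g : (α → ℕ) → ℕ}, NPoly f → NPoly g →
      PLD {v | f v ≤ g v ∧ h v ∣ (g v - f v)} := by
    intro f g hf hg
    have h1 : PLD {w : α ⊕ Unit → ℕ | f (w ∘ Sum.inl) + w (Sum.inr ()) = g (w ∘ Sum.inl) ∧
        h (w ∘ Sum.inl) ∣ w (Sum.inr ())} :=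
      (PLD.eqN ((hf.reindex _).add (NPoly.proj _)) (hg.reindex _)).and
        (PLD.dvdN (hh.reindex _) (NPoly.proj _))
    refine (h1.exUnique ?_).congr fun v => ?_
    · rintro v x x' ⟨h1, -⟩ ⟨h2, -⟩
      simp only [Sum.elim_comp_inl, Sum.elim_inr] at h1 h2
      funext u
      have : u = () := rfl
      subst this
      omega
    · simp only [Set.mem_ofPred_eq, Sum.elim_comp_inl, Sum.elim_inr]
      constructor
      · rintro ⟨x, h2, h3⟩
        refine ⟨by omega, ?_⟩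
        have : g v - f v = x () := by omega
        rwa [this]
      · rintro ⟨h2, h3⟩
        exact ⟨fun _ => g v - f v, Nat.add_sub_cancel' h2, h3⟩
  refine ((key hf hg).or (key hg hf)).congr fun v => ?_
  simp only [Set.mem_ofPred_eq]
  constructor
  · rintro (⟨h1, h2⟩ | ⟨h1, h2⟩)
    · exact (Nat.modEq_iff_dvd' h1).2 h2
    · exact ((Nat.modEq_iff_dvd' h1).2 h2).symm
  · intro hm
    rcases le_total (f v) (g v) with h1 | h1
    · exact Or.inl ⟨h1, (Nat.modEq_iff_dvd' h1).1 hm⟩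
    · exact Or.inr ⟨h1, (Nat.modEq_iff_dvd' h1).1 hm.symm⟩

end Vale.Agent.H27.PF
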