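import Vale.Agent.H27.PF.Defs
import Vale.Agent.H27.PF.PellSparse

/-!
# Exponential terms and the final statement
-/

namespace Vale.Agent.H27.PF

theorem pld_comp {σ : Type} {op : ℕ → ℕ → ℕ} (hop : PLD {v : Fin 3 → ℕ | v 2 = op (v 0) (v 1)})
    {s t : (σ → ℕ) → ℕ} (hs : PLD {v : σ ⊕ Unit → ℕ | v (Sum.inr ()) = s (v ∘ Sum.inl)})
    (ht : PLD {v : σ ⊕ Unit → ℕ | v (Sum.inr ()) = t (v ∘ Sum.inl)}) :
    PLD {v : σ ⊕ Unit → ℕ | v (Sum.inr ()) = op (s (v ∘ Sum.inl)) (t (v ∘ Sum.inl))} := by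
  let es : σ ⊕ Unit → (σ ⊕ Unit) ⊕ Fin 2 :=
    Sum.elim (fun i => Sum.inl (Sum.inl i)) (fun _ => Sum.inr 0)
  let et : σ ⊕ Unit → (σ ⊕ Unit) ⊕ Fin 2 :=
    Sum.elim (fun i => Sum.inl (Sum.inl i)) (fun _ => Sum.inr 1)
  let eo : Fin 3 → (σ ⊕ Unit) ⊕ Fin 2 := ![Sum.inr 0, Sum.inr 1, Sum.inl (Sum.inr ())]
  have h := (hs.reindex es).and ((ht.reindex et).and (hop.reindex eo))
  refine (PLD.exUnique (α := σ ⊕ Unit) (γ := Fin 2) h ?_).congr fun v => ?_
  · rintro v x x' ⟨h1, h2, -⟩ ⟨h3, h4, -⟩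
    funext i
    fin_cases i
    · exact (show x 0 = s (v ∘ Sum.inl) from h1).trans (show x' 0 = s (v ∘ Sum.inl) from h3).symm
    · exact (show x 1 = t (v ∘ Sum.inl) from h2).trans (show x' 1 = t (v ∘ Sum.inl) from h4).symm
  · constructor
    · rintro ⟨x, h1, h2, h3⟩
      have h1' : x 0 = s (v ∘ Sum.inl) := h1
      have h2' : x 1 = t (v ∘ Sum.inl) := h2
      have h3' : v (Sum.inr ()) = op (x 0) (x 1) := h3
      show v (Sum.inr ()) = op (s (v ∘ Sum.inl)) (t (v ∘ Sum.inl))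
      rw [h3', h1', h2']
    · intro h3
      exact ⟨![s (v ∘ Sum.inl), t (v ∘ Sum.inl)], rfl, rfl, h3⟩

theorem pld_eval {σ : Type} (E : ExpTerm σ) :
    PLD {v : σ ⊕ Unit → ℕ | v (Sum.inr ()) = E.eval (v ∘ Sum.inl)} := by
  induction E with
  | var i => exact PLD.eqN (NPoly.proj _) (NPoly.proj (Sum.inl i))
  | const c => exact PLD.eqN (NPoly.proj _) (NPoly.const c)
  | add s t hs ht =>
    exact pld_comp (op := fun x y => x + y) (s := fun v => s.eval v) (t := fun v => t.eval v)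
      (PLD.eqN (NPoly.proj 2) ((NPoly.proj 0).add (NPoly.proj 1))) hs ht
  | mul s t hs ht =>
    exact pld_comp (op := fun x y => x * y) (s := fun v => s.eval v) (t := fun v => t.eval v)
      (PLD.eqN (NPoly.proj 2) ((NPoly.proj 0).mul (NPoly.proj 1))) hs ht
  | pow s t hs ht =>
    exact pld_comp (op := fun x y => x ^ y) (s := fun v => s.eval v) (t := fun v => t.eval v)
      pld_pow hs ht

theorem pld_eval_eq {σ : Type} (E₁ E₂ : ExpTerm σ) :
    PLD {v : σ → ℕ | E₁.eval v = E₂.eval v} := by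
  refine (PLD.exUnique (α := σ) (γ := Unit) ((pld_eval E₁).and (pld_eval E₂)) ?_).congr
    fun v => ?_
  · rintro v x x' ⟨h1, -⟩ ⟨h2, -⟩
    funext i
    exact (show x () = E₁.eval v from h1).trans (show x' () = E₁.eval v from h2).symm
  · constructor
    · rintro ⟨x, h1, h2⟩
      exact (show x () = E₁.eval v from h1).symm.trans (show x () = E₂.eval v from h2)
    · intro h
      exact ⟨fun _ => E₁.eval v, rfl, h⟩

theorem pld_of_singleFoldExp {n : ℕ} {S : Set (Fin n → ℕ)} (hS : SingleFoldExp S) : PLD S := by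
  obtain ⟨m, E₁, E₂, h1, h2⟩ := hS
  refine (PLD.exUnique (α := Fin n) (γ := Fin m) (pld_eval_eq E₁ E₂) ?_).congr fun v => ?_
  · intro v x x' h3 h4
    exact h2 v h3 h4
  · exact (h1 v).symm

theorem PLD.toPolynomial {n : ℕ} {S : Set (Fin n → ℕ)} (hS : PLD S) :
    ∃ (m : ℕ) (P : MvPolynomial (Fin n ⊕ Fin m) ℤ) (C k : ℕ),
      (∀ a : Fin n → ℕ, a ∈ S ↔ (auxSolutions P a).Nonempty) ∧
      ∀ (a : Fin n → ℕ) (N : ℕ),
        {w ∈ auxSolutions P a | ∀ i, w i ≤ N}.ncard ≤ C * (Nat.log 2 N + 1) ^ k := by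
  obtain ⟨β, _, f, ⟨p, hp⟩, hfS, C, k, hC⟩ := hS
  let e := Fintype.equivFin β
  have key : ∀ (a : Fin n → ℕ) (w : Fin (Fintype.card β) → ℕ),
      MvPolynomial.eval (Sum.elim (fun i => (a i : ℤ)) (fun j => (w j : ℤ)))
        (MvPolynomial.rename (Sum.map id e) p) = f (Sum.elim a (w ∘ e)) := by
    intro a w
    rw [MvPolynomial.eval_rename, ← hp]
    apply congrArg (fun g => MvPolynomial.eval g p)
    funext i
    rcases i with i | i <;> rfl
  refine ⟨Fintype.card β, MvPolynomial.rename (Sum.map id e) p, C, k, fun a => ?_, fun a N => ?_⟩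
  · rw [hfS]
    constructor
    · rintro ⟨w, hw⟩
      refine ⟨w ∘ e.symm, ?_⟩
      show MvPolynomial.eval _ _ = 0
      rw [key, Function.comp_assoc, Equiv.symm_comp_self]
      exact hw
    · rintro ⟨w, hw⟩
      exact ⟨w ∘ e, (key a w).symm.trans hw⟩
  · refine le_trans ?_ (hC a N)
    refine Set.ncard_le_ncard_of_injOn (fun w => w ∘ e) ?_ ?_
      ((bdd_finite N).subset Set.inter_subset_right)
    · rintro w ⟨hw, hN⟩
      exact ⟨(key a w).symm.trans hw, fun i => hN _⟩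
    · intro w _ w' _ h
      exact e.surjective.injective_comp_right h

end Vale.Agent.H27.PF
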